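import Vale.Agent.P124.H186.Defs

/-!
P124 (helper219), geometric theorem T4, part 1: basic facts on plays, the flat/maximal
functional `σ`, the pair process and its invariants.
-/

namespace P124H219

open P124H186


lemma bb : (10:ℝ)^15 = 1000000000000000 := by norm_num

section basics

variable {n : ℕ} {g : Geo}

lemma D_nonneg (hg : Valid n g) {i j : ℕ} (hi : i ≤ n) (hj : j ≤ n) : 0 ≤ g.D i j := by
  have h1 := hg.D_tri i hi j hj i hi
  have h2 := hg.D_self i hi
  have h3 := hg.D_symm i hi j hj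
  linarith

lemma P_ge (hg : Valid n g) {t l : ℕ} (ht : t < n) (hA : g.isA (t+1)) (hl : l ≤ t) :
    g.D (t+1) l ≤ g.P (t+1) l := by
  have h1 := hg.A_le t ht hA l hl l hl
  have h2 := hg.D_self l (by omega)
  linarith

lemma P_nonneg (hg : Valid n g) {t l : ℕ} (ht : t < n) (hA : g.isA (t+1)) (hl : l ≤ t) :
    0 ≤ g.P (t+1) l :=
  (D_nonneg hg (by omega) (by omega)).trans (P_ge hg ht hA hl)

lemma A_flat' (hg : Valid n g) {t l : ℕ} (ht : t < n) (hA : g.isA (t+1)) {s : ℕ → ℝ}
    (hs : s ∈ g.S (t+1)) (hl : l ≤ t) :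
    s (t+1) - s l ≤ g.P (t+1) l / 1000000000000000 ∧ s l - s (t+1) ≤ g.P (t+1) l / 1000000000000000 := by
  have h := hg.A_flat t ht hA s hs l hl
  rw [bb, abs_le] at h
  constructor <;> linarith [h.1, h.2]

lemma S_down (hg : Valid n g) {t t' : ℕ} (h : t ≤ t') (ht' : t' ≤ n) {s : ℕ → ℝ}
    (hs : s ∈ g.S t') : s ∈ g.S t := by
  induction t' with
  | zero =>
    obtain rfl : t = 0 := by omega
    exact hs
  | succ m ih =>
    rcases Nat.lt_or_ge m t with h1 | h1
    · obtain rfl : t = m + 1 := by omega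
      exact hs
    · exact ih h1 (by omega) (hg.S_res m (by omega) s hs)

lemma exists_min (f : ℕ → ℝ) (t : ℕ) : ∃ l ≤ t, ∀ l' ≤ t, f l ≤ f l' := by
  obtain ⟨l, hl, h⟩ := Finset.exists_min_image (Finset.range (t+1)) f ⟨0, by simp⟩
  refine ⟨l, by simpa [Nat.lt_succ_iff] using hl, fun l' hl' => h l' ?_⟩
  simpa [Nat.lt_succ_iff] using hl'

/-- one step of B-extension with prescribed new value -/
lemma B_step (hg : Valid n g) {t : ℕ} (ht : t < n) (hB : ¬ g.isA (t+1)) {s : ℕ → ℝ}
    (hs : s ∈ g.S t) (x : ℝ) (h1 : ∀ l ≤ t, x ≤ s l + g.D (t+1) l)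
    (h2 : ∀ l ≤ t, s l - g.D (t+1) l ≤ x) :
    ∃ s' ∈ g.S (t+1), (∀ i ≤ t, s' i = s i) ∧ s' (t+1) = x := by
  have e1 : ∀ i ≤ t, Function.update s (t+1) x i = s i := by
    intro i hi
    exact Function.update_of_ne (by omega) _ _
  have e2 : Function.update s (t+1) x (t+1) = x := Function.update_self _ _ _
  refine ⟨Function.update s (t+1) x, ?_, e1, e2⟩
  refine hg.B_ext t ht hB _ (hg.S_congr t ht.le s _ (fun i hi => (e1 i hi).symm) hs) ?_
  intro l hl
  rw [e2, e1 l hl, abs_le]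
  constructor <;> linarith [h1 l hl, h2 l hl]

lemma max_ok (hg : Valid n g) {t : ℕ} (ht : t < n) {s : ℕ → ℝ}
    (hs : s ∈ g.S t) {l0 : ℕ} (hl0 : l0 ≤ t) (l : ℕ) (hl : l ≤ t) :
    s l - g.D (t+1) l ≤ s l0 + g.D (t+1) l0 := by
  have h1 := hg.S_lip t ht.le s hs l hl l0 hl0
  have h2 := hg.D_tri l (by omega) (t+1) (by omega) l0 (by omega)
  have h3 := hg.D_symm l (by omega) (t+1) (by omega)
  linarith

lemma ext_up (hg : Valid n g) {t t' : ℕ} (h : t ≤ t') (ht' : t' ≤ n) {s : ℕ → ℝ}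
    (hs : s ∈ g.S t) : ∃ s' ∈ g.S t', ∀ i ≤ t, s' i = s i := by
  induction t' with
  | zero =>
    obtain rfl : t = 0 := by omega
    exact ⟨s, hs, fun _ _ => rfl⟩
  | succ m ih =>
    rcases Nat.lt_or_ge m t with h1 | h1
    · obtain rfl : t = m + 1 := by omega
      exact ⟨s, hs, fun _ _ => rfl⟩
    · obtain ⟨s1, hs1, e1⟩ := ih h1 (by omega)
      by_cases hA : g.isA (m+1)
      · obtain ⟨s2, hs2, e2⟩ := hg.A_ext m (by omega) hA s1 hs1
        exact ⟨s2, hs2, fun i hi => by rw [e2 i (by omega), e1 i hi]⟩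
      · obtain ⟨l0, hl0, hm⟩ := exists_min (fun l => s1 l + g.D (m+1) l) m
        obtain ⟨s2, hs2, e2, -⟩ := B_step hg (by omega) hA hs1 (s1 l0 + g.D (m+1) l0)
          (fun l hl => hm l hl) (fun l hl => max_ok hg (by omega) hs1 hl0 l hl)
        exact ⟨s2, hs2, fun i hi => by rw [e2 i (by omega), e1 i hi]⟩

lemma exists_flat (hg : Valid n g) {t : ℕ} (ht : t ≤ n) :
    ∃ s ∈ g.S t, ∀ i ≤ t, ∀ j ≤ t, s i - s j ≤ g.D i j / 1000000000000000 := by
  induction t with
  | zero =>
    obtain ⟨s, hs⟩ := hg.S_ne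
    refine ⟨s, hs, fun i hi j hj => ?_⟩
    obtain rfl : i = 0 := by omega
    obtain rfl : j = 0 := by omega
    rw [hg.D_self 0 (by omega)]
    simp
  | succ m ih =>
    obtain ⟨s, hs, hf⟩ := ih (by omega)
    by_cases hA : g.isA (m+1)
    · obtain ⟨s2, hs2, e2⟩ := hg.A_ext m (by omega) hA s hs
      refine ⟨s2, hs2, ?_⟩
      have key : ∀ j ≤ m, s2 (m+1) - s2 j ≤ g.D (m+1) j / 1000000000000000 ∧ s2 j - s2 (m+1) ≤ g.D (m+1) j / 1000000000000000 := by
        intro j hj
        obtain ⟨l, hl, hD⟩ := hg.A_eq m (by omega) hA j hj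
        have h1 := A_flat' hg (by omega) hA hs2 hl
        have h2 := hf l hl j hj
        have h3 := hf j hj l hl
        have h4 := hg.D_symm l (by omega) j (by omega)
        rw [← e2 l hl, ← e2 j hj] at h2 h3
        constructor <;> linarith [h1.1, h1.2]
      intro i hi j hj
      rcases Nat.lt_or_ge m i with h1 | h1 <;> rcases Nat.lt_or_ge m j with h2 | h2
      · obtain rfl : i = m + 1 := by omega
        obtain rfl : j = m + 1 := by omega
        rw [hg.D_self (m+1) (by omega)]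
        simp
      · obtain rfl : i = m + 1 := by omega
        exact (key j h2).1
      · obtain rfl : j = m + 1 := by omega
        rw [hg.D_symm i (by omega) (m+1) (by omega)]
        exact (key i h1).2
      · rw [e2 i h1, e2 j h2]
        exact hf i h1 j h2
    · obtain ⟨l0, hl0, hm⟩ := exists_min (fun l => s l + g.D (m+1) l / 1000000000000000) m
      have hm' : ∀ l ≤ m, s l0 + g.D (m+1) l0 / 1000000000000000 ≤ s l + g.D (m+1) l / 1000000000000000 := fun l hl => hm l hl
      have hlow : ∀ l ≤ m, s l - g.D (m+1) l / 1000000000000000 ≤ s l0 + g.D (m+1) l0 / 1000000000000000 := by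
        intro l hl
        have h1 := hf l hl l0 hl0
        have h2 := hg.D_tri l (by omega) (m+1) (by omega) l0 (by omega)
        have h3 := hg.D_symm l (by omega) (m+1) (by omega)
        linarith
      obtain ⟨s2, hs2, e2, e3⟩ := B_step hg (by omega) hA hs (s l0 + g.D (m+1) l0 / 1000000000000000)
        (fun l hl => by
          have := hm' l hl
          have h4 := D_nonneg hg (i := m+1) (j := l) (by omega) (by omega)
          linarith)
        (fun l hl => by
          have := hlow l hl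
          have h4 := D_nonneg hg (i := m+1) (j := l) (by omega) (by omega)
          linarith)
      refine ⟨s2, hs2, ?_⟩
      intro i hi j hj
      rcases Nat.lt_or_ge m i with h1 | h1 <;> rcases Nat.lt_or_ge m j with h2 | h2
      · obtain rfl : i = m + 1 := by omega
        obtain rfl : j = m + 1 := by omega
        rw [hg.D_self (m+1) (by omega)]
        simp
      · obtain rfl : i = m + 1 := by omega
        rw [e3, e2 j h2]
        linarith [hm' j h2]
      · obtain rfl : j = m + 1 := by omega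
        rw [hg.D_symm i (by omega) (m+1) (by omega), e3, e2 i h1]
        linarith [hlow i h1]
      · rw [e2 i h1, e2 j h2]
        exact hf i h1 j h2

end basics

/-- context: a play valid up to `n`, a root time `t0`, a stop time `ts`, a functional
`σ` flat on `{0..ts}` and maximal at the later B-births -/
structure Ctx (n : ℕ) (g : Geo) (t0 ts : ℕ) (σ : ℕ → ℝ) : Prop where
  hg : Valid n g
  ht0 : t0 ≤ n
  hts : ts ≤ t0
  mem : σ ∈ g.S t0
  flat : ∀ i ≤ ts, ∀ j ≤ ts, σ i - σ j ≤ g.D i j / 1000000000000000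
  mx : ∀ t, ts ≤ t → t < t0 → ¬ g.isA (t+1) → ∃ l ≤ t, σ (t+1) = σ l + g.D (t+1) l

lemma exists_ctx {n : ℕ} {g : Geo} (hg : Valid n g) {t0 ts : ℕ} (ht0 : t0 ≤ n) (hts : ts ≤ t0) :
    ∃ σ, Ctx n g t0 ts σ := by
  induction t0 with
  | zero =>
    obtain rfl : ts = 0 := by omega
    obtain ⟨s, hs, hf⟩ := exists_flat hg ht0
    exact ⟨s, hg, ht0, hts, hs, hf, fun t _ h => by omega⟩
  | succ m ih =>
    rcases Nat.lt_or_ge m ts with h1 | h1
    · obtain rfl : ts = m + 1 := by omega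
      obtain ⟨s, hs, hf⟩ := exists_flat hg ht0
      exact ⟨s, hg, ht0, hts, hs, hf, fun t _ h => by omega⟩
    · obtain ⟨s, hc⟩ := ih (by omega) h1
      by_cases hA : g.isA (m+1)
      · obtain ⟨s2, hs2, e2⟩ := hg.A_ext m (by omega) hA s hc.mem
        refine ⟨s2, hg, ht0, hts, hs2, ?_, ?_⟩
        · intro i hi j hj
          rw [e2 i (by omega), e2 j (by omega)]
          exact hc.flat i hi j hj
        · intro t h2 h3 h4
          have h5 : t < m := by
            rcases Nat.lt_or_ge t m with h | h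
            · exact h
            · obtain rfl : t = m := by omega
              exact absurd hA h4
          obtain ⟨l, hl, e⟩ := hc.mx t h2 h5 h4
          exact ⟨l, hl, by rw [e2 (t+1) (by omega), e2 l (by omega), e]⟩
      · obtain ⟨l0, hl0, hm⟩ := exists_min (fun l => s l + g.D (m+1) l) m
        obtain ⟨s2, hs2, e2, e3⟩ := B_step hg (by omega) hA hc.mem (s l0 + g.D (m+1) l0)
          (fun l hl => hm l hl) (fun l hl => max_ok hg (by omega) hc.mem hl0 l hl)
        refine ⟨s2, hg, ht0, hts, hs2, ?_, ?_⟩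
        · intro i hi j hj
          rw [e2 i (by omega), e2 j (by omega)]
          exact hc.flat i hi j hj
        · intro t h2 h3 h4
          rcases Nat.lt_or_ge t m with h | h
          · obtain ⟨l, hl, e⟩ := hc.mx t h2 h h4
            exact ⟨l, hl, by rw [e2 (t+1) (by omega), e2 l (by omega), e]⟩
          · obtain rfl : t = m := by omega
            exact ⟨l0, hl0, by rw [e3, e2 l0 hl0]⟩

section ctx

variable {n : ℕ} {g : Geo} {t0 ts : ℕ} {σ : ℕ → ℝ}

lemma Ctx.lip (hc : Ctx n g t0 ts σ) {i j : ℕ} (hi : i ≤ t0) (hj : j ≤ t0) :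
    σ i - σ j ≤ g.D i j := hc.hg.S_lip t0 hc.ht0 σ hc.mem i hi j hj

lemma Ctx.memd (hc : Ctx n g t0 ts σ) {t : ℕ} (ht : t ≤ t0) : σ ∈ g.S t :=
  S_down hc.hg ht hc.ht0 hc.mem

/-- FLOOR -/
lemma Ctx.floor (hc : Ctx n g t0 ts σ) {p : ℕ} (hp : p ≤ ts) :
    ∀ c, c ≤ t0 → σ p - g.D p c / 1000000000000000 ≤ σ c := by
  have hts := hc.hts
  have ht0 := hc.ht0
  intro c
  induction c using Nat.strong_induction_on with
  | _ c ih =>
    intro hct
    rcases Nat.lt_or_ge ts c with h | h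
    · obtain ⟨t, rfl⟩ : ∃ t, c = t + 1 := ⟨c - 1, by omega⟩
      by_cases hA : g.isA (t+1)
      · obtain ⟨l, hl, hD⟩ := hc.hg.A_eq t (by omega) hA p (by omega)
        have h1 := ih l (by omega) (by omega)
        have h2 := A_flat' hc.hg (by omega) hA (hc.memd hct) hl
        have h3 := hc.hg.D_symm l (by omega) p (by omega)
        have h4 := hc.hg.D_symm (t+1) (by omega) p (by omega)
        linarith [h2.2]
      · obtain ⟨l, hl, e⟩ := hc.mx t (by omega) (by omega) hA
        have h1 := ih l (by omega) (by omega)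
        have h2 := hc.hg.D_tri p (by omega) (t+1) (by omega) l (by omega)
        have h3 := D_nonneg hc.hg (i := t+1) (j := l) (by omega) (by omega)
        linarith
    · have h1 := hc.flat p hp c h
      linarith

end ctx

/-- state of the pair process -/
structure St where
  u : ℕ
  v : ℕ
  Q : ℝ
  As : ℝ
  Ac : ℝ

/-- one step (from time `t+1` to time `t`) of the pair process -/
inductive Step (g : Geo) (σ : ℕ → ℝ) (tgt : ℕ → ℕ) (Θ : ℝ) (t : ℕ) : St → St → Prop
  | stay (u v : ℕ) (Q As Ac : ℝ) (hu : u ≤ t) (hv : v ≤ t) :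
      Step g σ tgt Θ t ⟨u, v, Q, As, Ac⟩ ⟨u, v, Q, As, Ac⟩
  | uA (v l : ℕ) (Q As Ac : ℝ) (hA : g.isA (t+1)) (hv : v ≤ t) (hl : l ≤ t)
      (hD : g.D (t+1) v = g.P (t+1) l + g.D l v) (hΘ : As + g.P (t+1) l < Θ) :
      Step g σ tgt Θ t ⟨t+1, v, Q, As, Ac⟩ ⟨l, v, Q, As + g.P (t+1) l, Ac⟩
  | uB (v l : ℕ) (Q As Ac : ℝ) (hB : ¬ g.isA (t+1)) (hv : v ≤ t) (hl : l ≤ t) :
      Step g σ tgt Θ t ⟨t+1, v, Q, As, Ac⟩ ⟨l, v, Q + g.D (t+1) l, As, Ac⟩
  | vA (u l : ℕ) (Q As Ac : ℝ) (hA : g.isA (t+1)) (hu : u ≤ t) (hl : l ≤ t)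
      (hD : g.D (t+1) u = g.P (t+1) l + g.D l u) (hΘ : As + g.P (t+1) l < Θ) :
      Step g σ tgt Θ t ⟨u, t+1, Q, As, Ac⟩ ⟨u, l, Q, As + g.P (t+1) l, Ac⟩
  | vB (u l : ℕ) (Q As Ac : ℝ) (hB : ¬ g.isA (t+1)) (hu : u ≤ t) (hl : l ≤ t)
      (hs : σ (t+1) = σ l + g.D (t+1) l) :
      Step g σ tgt Θ t ⟨u, t+1, Q, As, Ac⟩ ⟨u, l, Q, As, Ac⟩
  | bA (l : ℕ) (Q As Ac : ℝ) (hA : g.isA (t+1)) (hl : l ≤ t)
      (hD : g.D (t+1) (tgt t) = g.P (t+1) l + g.D l (tgt t)) :
      Step g σ tgt Θ t ⟨t+1, t+1, Q, As, Ac⟩ ⟨l, l, Q, As, Ac + g.P (t+1) l⟩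
  | bB (k l : ℕ) (Q As Ac : ℝ) (hB : ¬ g.isA (t+1)) (hk : k ≤ t) (hl : l ≤ t)
      (hs : σ (t+1) = σ l + g.D (t+1) l) :
      Step g σ tgt Θ t ⟨t+1, t+1, Q, As, Ac⟩ ⟨k, l, Q + g.D (t+1) k, As, Ac⟩

/-- the invariants of one or several steps -/
structure Inv (n : ℕ) (g : Geo) (σ : ℕ → ℝ) (Θ : ℝ) (t1 t : ℕ) (x y : St) : Prop where
  hu : y.u ≤ t
  hv : y.v ≤ t
  hQ : x.Q ≤ y.Q
  hAs : x.As ≤ y.As
  hAc : x.Ac ≤ y.Ac
  hΘ : x.As < Θ → y.As < Θ
  i2 : x.Q - g.D x.u x.v - σ x.v - (1 - 1/1000000000000000) * x.As + x.Ac / 1000000000000000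
    ≤ y.Q - g.D y.u y.v - σ y.v - (1 - 1/1000000000000000) * y.As + y.Ac / 1000000000000000
  i4 : ∀ z ≤ n, g.D z y.v + σ y.v - (1 + 1/1000000000000000) * (y.Ac + y.As)
    ≤ g.D z x.v + σ x.v - (1 + 1/1000000000000000) * (x.Ac + x.As)
  i5 : x.Q + σ x.u + (x.Ac + x.As) / 1000000000000000
    ≤ y.Q + σ y.u + (y.Ac + y.As) / 1000000000000000
  i6 : ∀ s ∈ g.S t1, |s x.v - s y.v| ≤ σ x.v - σ y.v
    + 2 * ((y.Ac + y.As) - (x.Ac + x.As)) / 1000000000000000

/-- invariant with a constant target -/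
def Inv3 (g : Geo) (σ : ℕ → ℝ) (p : ℕ) (x y : St) : Prop :=
  g.D y.v p + σ y.v + (1 - 1/1000000000000000) * y.Ac - (1 + 1/1000000000000000) * y.As
    ≤ g.D x.v p + σ x.v + (1 - 1/1000000000000000) * x.Ac - (1 + 1/1000000000000000) * x.As


section step

variable {n : ℕ} {g : Geo} {t0 ts t : ℕ} {σ : ℕ → ℝ} {tgt : ℕ → ℕ} {Θ : ℝ} {x y : St}

lemma step_inv (hc : Ctx n g t0 ts σ) (ht : t < t0) (htgt : tgt t ≤ t)
    (h : Step g σ tgt Θ t x y) : Inv n g σ Θ (t+1) t x y := by
  have hg := hc.hg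
  have ht0 := hc.ht0
  have hσ : σ ∈ g.S (t+1) := hc.memd ht
  cases h with
  | stay u v Q As Ac hu hv =>
    refine ⟨hu, hv, le_refl _, le_refl _, le_refl _, id, le_refl _, fun _ _ => le_refl _,
      le_refl _, fun s _ => ?_⟩
    simp
  | uA v l Q As Ac hA hv hl hD hΘ =>
    have hP := P_nonneg hg (by omega) hA hl
    have h1 := A_flat' hg (by omega) hA hσ hl
    refine ⟨hl, hv, le_refl _, ?_, le_refl _, fun _ => hΘ, ?_, fun z hz => ?_, ?_, fun s hs => ?_⟩
    · show As ≤ As + g.P (t+1) l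
      linarith
    · show Q - g.D (t+1) v - σ v - (1 - 1/1000000000000000) * As + Ac / 1000000000000000
        ≤ Q - g.D l v - σ v - (1 - 1/1000000000000000) * (As + g.P (t+1) l) + Ac / 1000000000000000
      rw [hD]
      linarith
    · show g.D z v + σ v - (1 + 1/1000000000000000) * (Ac + (As + g.P (t+1) l))
        ≤ g.D z v + σ v - (1 + 1/1000000000000000) * (Ac + As)
      linarith
    · show Q + σ (t+1) + (Ac + As) / 1000000000000000 ≤ Q + σ l + (Ac + (As + g.P (t+1) l)) / 1000000000000000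
      linarith [h1.1]
    · show |s v - s v| ≤ σ v - σ v + 2 * ((Ac + (As + g.P (t+1) l)) - (Ac + As)) / 1000000000000000
      simp only [sub_self, abs_zero]
      linarith
  | uB v l Q As Ac hB hv hl =>
    have hD0 := D_nonneg hg (i := t+1) (j := l) (by omega) (by omega)
    have h1 := hg.D_tri l (by omega) (t+1) (by omega) v (by omega)
    have h2 := hg.D_symm l (by omega) (t+1) (by omega)
    have h3 := hc.lip (i := t+1) (j := l) (by omega) (by omega)
    refine ⟨hl, hv, ?_, le_refl _, le_refl _, id, ?_, fun z hz => le_refl _, ?_, fun s hs => ?_⟩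
    · show Q ≤ Q + g.D (t+1) l
      linarith
    · show Q - g.D (t+1) v - σ v - (1 - 1/1000000000000000) * As + Ac / 1000000000000000
        ≤ Q + g.D (t+1) l - g.D l v - σ v - (1 - 1/1000000000000000) * As + Ac / 1000000000000000
      linarith
    · show Q + σ (t+1) + (Ac + As) / 1000000000000000 ≤ Q + g.D (t+1) l + σ l + (Ac + As) / 1000000000000000
      linarith
    · show |s v - s v| ≤ σ v - σ v + 2 * ((Ac + As) - (Ac + As)) / 1000000000000000
      simp
  | vA u l Q As Ac hA hu hl hD hΘ =>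
    have hP := P_nonneg hg (by omega) hA hl
    have hPD := P_ge hg (by omega) hA hl
    have h1 := A_flat' hg (by omega) hA hσ hl
    have h2 := hg.D_symm (t+1) (by omega) u (by omega)
    have h3 := hg.D_symm l (by omega) u (by omega)
    refine ⟨hu, hl, le_refl _, ?_, le_refl _, fun _ => hΘ, ?_, fun z hz => ?_, ?_, fun s hs => ?_⟩
    · show As ≤ As + g.P (t+1) l
      linarith
    · show Q - g.D u (t+1) - σ (t+1) - (1 - 1/1000000000000000) * As + Ac / 1000000000000000
        ≤ Q - g.D u l - σ l - (1 - 1/1000000000000000) * (As + g.P (t+1) l) + Ac / 1000000000000000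
      linarith [h1.1, h1.2]
    · show g.D z l + σ l - (1 + 1/1000000000000000) * (Ac + (As + g.P (t+1) l))
        ≤ g.D z (t+1) + σ (t+1) - (1 + 1/1000000000000000) * (Ac + As)
      have h4 := hg.D_tri z hz (t+1) (by omega) l (by omega)
      linarith [h1.2]
    · show Q + σ u + (Ac + As) / 1000000000000000 ≤ Q + σ u + (Ac + (As + g.P (t+1) l)) / 1000000000000000
      linarith
    · show |s (t+1) - s l| ≤ σ (t+1) - σ l + 2 * ((Ac + (As + g.P (t+1) l)) - (Ac + As)) / 1000000000000000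
      have h5 := A_flat' hg (by omega) hA hs hl
      rw [abs_le]
      constructor <;> linarith [h1.2, h5.1, h5.2]
  | vB u l Q As Ac hB hu hl hσl =>
    have hD0 := D_nonneg hg (i := t+1) (j := l) (by omega) (by omega)
    refine ⟨hu, hl, le_refl _, le_refl _, le_refl _, id, ?_, fun z hz => ?_, le_refl _,
      fun s hs => ?_⟩
    · show Q - g.D u (t+1) - σ (t+1) - (1 - 1/1000000000000000) * As + Ac / 1000000000000000
        ≤ Q - g.D u l - σ l - (1 - 1/1000000000000000) * As + Ac / 1000000000000000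
      have h1 := hg.D_tri u (by omega) (t+1) (by omega) l (by omega)
      linarith
    · show g.D z l + σ l - (1 + 1/1000000000000000) * (Ac + As)
        ≤ g.D z (t+1) + σ (t+1) - (1 + 1/1000000000000000) * (Ac + As)
      have h4 := hg.D_tri z hz (t+1) (by omega) l (by omega)
      linarith
    · show |s (t+1) - s l| ≤ σ (t+1) - σ l + 2 * ((Ac + As) - (Ac + As)) / 1000000000000000
      have h5 := hg.S_lip (t+1) (by omega) s hs (t+1) (le_refl _) l (by omega)
      have h6 := hg.S_lip (t+1) (by omega) s hs l (by omega) (t+1) (le_refl _)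
      have h7 := hg.D_symm l (by omega) (t+1) (by omega)
      rw [abs_le]
      constructor <;> linarith
  | bA l Q As Ac hA hl hD =>
    have hP := P_nonneg hg (by omega) hA hl
    have hPD := P_ge hg (by omega) hA hl
    have h1 := A_flat' hg (by omega) hA hσ hl
    have h2 := hg.D_self (t+1) (by omega)
    have h3 := hg.D_self l (by omega)
    refine ⟨hl, hl, le_refl _, le_refl _, ?_, id, ?_, fun z hz => ?_, ?_, fun s hs => ?_⟩
    · show Ac ≤ Ac + g.P (t+1) l
      linarith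
    · show Q - g.D (t+1) (t+1) - σ (t+1) - (1 - 1/1000000000000000) * As + Ac / 1000000000000000
        ≤ Q - g.D l l - σ l - (1 - 1/1000000000000000) * As + (Ac + g.P (t+1) l) / 1000000000000000
      linarith [h1.1, h1.2]
    · show g.D z l + σ l - (1 + 1/1000000000000000) * ((Ac + g.P (t+1) l) + As)
        ≤ g.D z (t+1) + σ (t+1) - (1 + 1/1000000000000000) * (Ac + As)
      have h4 := hg.D_tri z hz (t+1) (by omega) l (by omega)
      linarith [h1.2]
    · show Q + σ (t+1) + (Ac + As) / 1000000000000000 ≤ Q + σ l + ((Ac + g.P (t+1) l) + As) / 1000000000000000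
      linarith [h1.1]
    · show |s (t+1) - s l| ≤ σ (t+1) - σ l + 2 * (((Ac + g.P (t+1) l) + As) - (Ac + As)) / 1000000000000000
      have h5 := A_flat' hg (by omega) hA hs hl
      rw [abs_le]
      constructor <;> linarith [h1.2, h5.1, h5.2]
  | bB k l Q As Ac hB hk hl hσl =>
    have hD0 := D_nonneg hg (i := t+1) (j := l) (by omega) (by omega)
    have hD1 := D_nonneg hg (i := t+1) (j := k) (by omega) (by omega)
    have h2 := hg.D_self (t+1) (by omega)
    refine ⟨hk, hl, ?_, le_refl _, le_refl _, id, ?_, fun z hz => ?_, ?_,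
      fun s hs => ?_⟩
    · show Q ≤ Q + g.D (t+1) k
      linarith
    · show Q - g.D (t+1) (t+1) - σ (t+1) - (1 - 1/1000000000000000) * As + Ac / 1000000000000000
        ≤ Q + g.D (t+1) k - g.D k l - σ l - (1 - 1/1000000000000000) * As + Ac / 1000000000000000
      have h1 := hg.D_tri k (by omega) (t+1) (by omega) l (by omega)
      have h3 := hg.D_symm k (by omega) (t+1) (by omega)
      linarith
    · show g.D z l + σ l - (1 + 1/1000000000000000) * (Ac + As)
        ≤ g.D z (t+1) + σ (t+1) - (1 + 1/1000000000000000) * (Ac + As)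
      have h4 := hg.D_tri z hz (t+1) (by omega) l (by omega)
      linarith
    · show Q + σ (t+1) + (Ac + As) / 1000000000000000 ≤ Q + g.D (t+1) k + σ k + (Ac + As) / 1000000000000000
      have h3 := hc.lip (i := t+1) (j := k) (by omega) (by omega)
      linarith
    · show |s (t+1) - s l| ≤ σ (t+1) - σ l + 2 * ((Ac + As) - (Ac + As)) / 1000000000000000
      have h5 := hg.S_lip (t+1) (by omega) s hs (t+1) (le_refl _) l (by omega)
      have h6 := hg.S_lip (t+1) (by omega) s hs l (by omega) (t+1) (le_refl _)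
      have h7 := hg.D_symm l (by omega) (t+1) (by omega)
      rw [abs_le]
      constructor <;> linarith

lemma step_inv3 (hc : Ctx n g t0 ts σ) (ht : t < t0) {p : ℕ} (hp : tgt t = p) (hpt : p ≤ t)
    (h : Step g σ tgt Θ t x y) : Inv3 g σ p x y := by
  have hg := hc.hg
  have ht0 := hc.ht0
  have hσ : σ ∈ g.S (t+1) := hc.memd ht
  cases h with
  | stay u v Q As Ac hu hv => exact le_refl _
  | uA v l Q As Ac hA hv hl hD hΘ =>
    have hP := P_nonneg hg (by omega) hA hl
    show g.D v p + σ v + (1 - 1/1000000000000000) * Ac - (1 + 1/1000000000000000) * (As + g.P (t+1) l)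
      ≤ g.D v p + σ v + (1 - 1/1000000000000000) * Ac - (1 + 1/1000000000000000) * As
    linarith
  | uB v l Q As Ac hB hv hl => exact le_refl _
  | vA u l Q As Ac hA hu hl hD hΘ =>
    have hP := P_nonneg hg (by omega) hA hl
    have hPD := P_ge hg (by omega) hA hl
    have h1 := A_flat' hg (by omega) hA hσ hl
    have h2 := hg.D_symm (t+1) (by omega) l (by omega)
    have h3 := hg.D_tri l (by omega) (t+1) (by omega) p (by omega)
    show g.D l p + σ l + (1 - 1/1000000000000000) * Ac - (1 + 1/1000000000000000) * (As + g.P (t+1) l)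
      ≤ g.D (t+1) p + σ (t+1) + (1 - 1/1000000000000000) * Ac - (1 + 1/1000000000000000) * As
    linarith [h1.2]
  | vB u l Q As Ac hB hu hl hσl =>
    have h2 := hg.D_symm (t+1) (by omega) l (by omega)
    have h3 := hg.D_tri l (by omega) (t+1) (by omega) p (by omega)
    show g.D l p + σ l + (1 - 1/1000000000000000) * Ac - (1 + 1/1000000000000000) * As
      ≤ g.D (t+1) p + σ (t+1) + (1 - 1/1000000000000000) * Ac - (1 + 1/1000000000000000) * As
    linarith
  | bA l Q As Ac hA hl hD =>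
    have h1 := A_flat' hg (by omega) hA hσ hl
    rw [hp] at hD
    show g.D l p + σ l + (1 - 1/1000000000000000) * (Ac + g.P (t+1) l) - (1 + 1/1000000000000000) * As
      ≤ g.D (t+1) p + σ (t+1) + (1 - 1/1000000000000000) * Ac - (1 + 1/1000000000000000) * As
    linarith [h1.2]
  | bB k l Q As Ac hB hk hl hσl =>
    have h2 := hg.D_symm (t+1) (by omega) l (by omega)
    have h3 := hg.D_tri l (by omega) (t+1) (by omega) p (by omega)
    show g.D l p + σ l + (1 - 1/1000000000000000) * Ac - (1 + 1/1000000000000000) * As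
      ≤ g.D (t+1) p + σ (t+1) + (1 - 1/1000000000000000) * Ac - (1 + 1/1000000000000000) * As
    linarith

lemma step_Ac (h : Step g σ tgt Θ t x y) : y.Ac = x.Ac ∨ x.u = x.v := by
  cases h <;> simp

end step

/-- runs of the pair process from time `t1` (state `x`) down to time `t` -/
inductive Run (g : Geo) (σ : ℕ → ℝ) (tgt : ℕ → ℕ) (Θ : ℝ) (t1 : ℕ) (x : St) : ℕ → St → Prop
  | refl : Run g σ tgt Θ t1 x t1 x
  | step {t : ℕ} {y y' : St} (h : Run g σ tgt Θ t1 x (t+1) y) (hs : Step g σ tgt Θ t y y') :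
      Run g σ tgt Θ t1 x t y'

section run

variable {n : ℕ} {g : Geo} {t0 ts t t1 : ℕ} {σ : ℕ → ℝ} {tgt : ℕ → ℕ} {Θ : ℝ} {x y z : St}

lemma Run.le (h : Run g σ tgt Θ t1 x t y) : t ≤ t1 := by
  induction h with
  | refl => exact le_refl _
  | step h hs ih => omega

lemma Inv.refl (hu : x.u ≤ t) (hv : x.v ≤ t) : Inv n g σ Θ t t x x :=
  ⟨hu, hv, le_refl _, le_refl _, le_refl _, id, le_refl _, fun _ _ => le_refl _, le_refl _,
    fun s _ => by simp⟩

lemma Inv.trans {t2 : ℕ} (hg : Valid n g) (h1 : Inv n g σ Θ t1 t x y) (ht : t ≤ t1)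
    (ht1 : t1 ≤ n) (h2 : Inv n g σ Θ t t2 y z) : Inv n g σ Θ t1 t2 x z := by
  refine ⟨h2.hu, h2.hv, h1.hQ.trans h2.hQ, h1.hAs.trans h2.hAs, h1.hAc.trans h2.hAc,
    fun h => h2.hΘ (h1.hΘ h), h1.i2.trans h2.i2, fun w hw => (h2.i4 w hw).trans (h1.i4 w hw),
    h1.i5.trans h2.i5, fun s hs => ?_⟩
  have a1 := h1.i6 s hs
  have a2 := h2.i6 s (S_down hg ht ht1 hs)
  have a3 := abs_sub_le (s x.v) (s y.v) (s z.v)
  linarith

lemma Run.inv (hc : Ctx n g t0 ts σ) (htgt : ∀ t, ts ≤ t → t < t0 → tgt t ≤ t)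
    (hu : x.u ≤ t1) (hv : x.v ≤ t1) (ht1 : t1 ≤ t0)
    (h : Run g σ tgt Θ t1 x t y) (hts : ts ≤ t) : Inv n g σ Θ t1 t x y := by
  induction h with
  | refl => exact Inv.refl hu hv
  | @step t y y' h hs ih =>
    have hle := h.le
    have h1 := ih (by omega)
    have h2 := step_inv hc (by omega) (htgt t hts (by omega)) hs
    exact Inv.trans hc.hg h1 hle (ht1.trans hc.ht0) h2

lemma Run.inv3 (hc : Ctx n g t0 ts σ) {p : ℕ} {tl : ℕ} (hts : ts ≤ tl) (hp : p ≤ tl)
    (htgt : ∀ t, tl ≤ t → t < t1 → tgt t = p) (ht1 : t1 ≤ t0)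
    (h : Run g σ tgt Θ t1 x t y) (htl : tl ≤ t) : Inv3 g σ p x y := by
  induction h with
  | refl => exact le_refl _
  | @step t y y' h hs ih =>
    have hle := h.le
    have h1 := ih (by omega)
    have h2 := step_inv3 hc (by omega) (htgt t htl (by omega)) (by omega) hs
    exact h2.trans h1

lemma Run.trans {t2 : ℕ} (h1 : Run g σ tgt Θ t1 x t y) (h2 : Run g σ tgt Θ t y t2 z) :
    Run g σ tgt Θ t1 x t2 z := by
  induction h2 with
  | refl => exact h1
  | step h hs ih => exact ih.step hs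

/-- either no common move, or a merged state in between -/
lemma Run.merged (h : Run g σ tgt Θ t1 x t y) :
    y.Ac = x.Ac ∨ ∃ tm m, t ≤ tm ∧ tm ≤ t1 ∧ Run g σ tgt Θ t1 x tm m ∧ m.u = m.v ∧
      Run g σ tgt Θ tm m t y := by
  induction h with
  | refl => exact Or.inl rfl
  | @step t y y' h hs ih =>
    have hle := h.le
    rcases ih with h1 | ⟨tm, m, h1, h2, h3, h4, h5⟩
    · rcases step_Ac hs with h6 | h6
      · exact Or.inl (h6.trans h1)
      · exact Or.inr ⟨t+1, y, by omega, hle, h, h6, Run.refl.step hs⟩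
    · exact Or.inr ⟨tm, m, by omega, h2, h3, h4, h5.step hs⟩

/-- splitting a run at an intermediate time -/
lemma Run.split {tm : ℕ} (h : Run g σ tgt Θ t1 x t y) (h1 : t ≤ tm) (h2 : tm ≤ t1) :
    ∃ m, Run g σ tgt Θ t1 x tm m ∧ Run g σ tgt Θ tm m t y := by
  induction h with
  | refl =>
    obtain rfl : tm = t1 := by omega
    exact ⟨x, Run.refl, Run.refl⟩
  | @step t y y' h hs ih =>
    rcases Nat.lt_or_ge t tm with h3 | h3
    · obtain ⟨m, h4, h5⟩ := ih (by omega)
      exact ⟨m, h4, h5.step hs⟩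
    · obtain rfl : tm = t := by omega
      exact ⟨y', h.step hs, Run.refl⟩

end run

/-- the initial states -/
noncomputable def ini (g : Geo) (t0 : ℕ) (rho : ℝ) (c : ℕ) : St :=
  ⟨c, t0, max (g.D c t0 - rho) 0, 0, 0⟩

end P124H219
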