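import Vale.Agent.P124.H219.Geo1

/-!
P124 (helper219), geometric theorem T4, part 2: generic assembly lemma, canonical chain,
merging of two walks.
-/

namespace P124H219

open P124H186


/-- the needs of the cone system -/
def Needs (g : Geo) (σ : ℕ → ℝ) (tgt : ℕ → ℕ) (Θ : ℝ) (t0 : ℕ) (rho : ℝ) (w : ℕ) (gq : ℝ)
    (t u : ℕ) (q : ℝ) : Prop :=
  (u = w ∧ q = gq) ∨ ∃ c ≤ t0, ∃ st : St, Run g σ tgt Θ t0 (ini g t0 rho c) t st ∧
    u = st.u ∧ q = st.Q - (st.Ac + st.As) / 1000000000000000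

structure Asm (n : ℕ) (g : Geo) (t0 ts : ℕ) (σ : ℕ → ℝ) (tgt : ℕ → ℕ) (Θ rho : ℝ) (w : ℕ)
    (gq K H H' M : ℝ) : Prop where
  hc : Ctx n g t0 ts σ
  hrho : 0 < rho
  hw : w ≤ ts
  htgt : ∀ t, ts ≤ t → t < t0 → tgt t ≤ t
  hΘ : 0 < Θ
  hb : ∀ c ≤ t0, ∀ t, ts ≤ t → ∀ st, Run g σ tgt Θ t0 (ini g t0 rho c) t st →
    st.Ac ≤ K ∧ σ t0 - σ st.v ≤ H ∧ g.D w st.v ≤ M
  hwS : ∀ s ∈ g.S t0, |s t0 - s w| ≤ H'
  hgq : -(rho / 10^4) ≤ gq
  hlow : (K + Θ) / 1000000000000000 ≤ rho / 10^4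
  hfar : M + H + rho + 2 * (K + Θ) / 1000000000000000 ≤ 10^10 * rho
  hstop : gq + 2 * H + H' + rho + 4 * (K + Θ) / 1000000000000000 ≤ Θ
  h5 : g.D t0 w ≤ 10^10 * rho

section

variable {n : ℕ} {g : Geo} {t0 ts : ℕ} {σ : ℕ → ℝ} {tgt : ℕ → ℕ} {Θ rho : ℝ} {w : ℕ}
    {gq K H H' M : ℝ}

/-- basic facts on reachable states -/
lemma reach_facts (hc : Ctx n g t0 ts σ) (htgt : ∀ t, ts ≤ t → t < t0 → tgt t ≤ t)
    (hΘ : 0 < Θ) {c : ℕ} (hct : c ≤ t0) {t : ℕ} (ht : ts ≤ t) {st : St}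
    (h : Run g σ tgt Θ t0 (ini g t0 rho c) t st) :
    st.u ≤ t ∧ st.v ≤ t ∧ 0 ≤ st.Q ∧ 0 ≤ st.As ∧ 0 ≤ st.Ac ∧ st.As < Θ ∧
    (g.D st.u st.v + σ st.v - σ t0 - rho + (1 - 1/1000000000000000) * st.As
      - st.Ac / 1000000000000000 ≤ st.Q) ∧
    (∀ z ≤ n, g.D z st.v ≤ g.D z t0 + (σ t0 - σ st.v)
      + (1 + 1/1000000000000000) * (st.Ac + st.As)) ∧
    (σ t0 - rho - (st.Ac + st.As) / 1000000000000000 ≤ st.Q + σ st.u) ∧
    (∀ s ∈ g.S t0, |s t0 - s st.v| ≤ σ t0 - σ st.v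
      + 2 * (st.Ac + st.As) / 1000000000000000) := by
  have hi := Run.inv hc htgt (x := ini g t0 rho c) hct (le_refl _) (le_refl _) h ht
  have e1 : (ini g t0 rho c).u = c := rfl
  have e2 : (ini g t0 rho c).v = t0 := rfl
  have e3 : (ini g t0 rho c).Q = max (g.D c t0 - rho) 0 := rfl
  have e4 : (ini g t0 rho c).As = 0 := rfl
  have e5 : (ini g t0 rho c).Ac = 0 := rfl
  have m1 : g.D c t0 - rho ≤ max (g.D c t0 - rho) 0 := le_max_left _ _
  have m2 : (0:ℝ) ≤ max (g.D c t0 - rho) 0 := le_max_right _ _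
  have ht0 := hc.ht0
  have l1 := hc.lip (i := t0) (j := c) (le_refl _) hct
  have l2 := hc.hg.D_symm t0 (by omega) c (by omega)
  have hQ := hi.hQ
  have hAs := hi.hAs
  have hAc := hi.hAc
  have i2 := hi.i2
  have i5 := hi.i5
  rw [e3] at hQ
  rw [e4] at hAs
  rw [e5] at hAc
  rw [e1, e2, e3, e4, e5] at i2
  rw [e1, e3, e4, e5] at i5
  refine ⟨hi.hu, hi.hv, by linarith, hAs, hAc, hi.hΘ (by rw [e4]; exact hΘ), by linarith, ?_,
    by linarith, ?_⟩
  · intro z hz
    have i4 := hi.i4 z hz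
    rw [e2, e4, e5] at i4
    linarith
  · intro s hs
    have i6 := hi.i6 s hs
    rw [e2, e4, e5] at i6
    linarith

/-- stopping is harmless -/
lemma stop_ok (ha : Asm n g t0 ts σ tgt Θ rho w gq K H H' M) {c : ℕ} (hct : c ≤ t0) {t : ℕ}
    (ht : ts ≤ t) (htt : t < t0) {st : St}
    (h : Run g σ tgt Θ t0 (ini g t0 rho c) (t+1) st) {s : ℕ → ℝ} (hs : s ∈ g.S (t+1))
    {P : ℝ} (hP : Θ ≤ st.As + P)
    (hsu : s st.v - g.D st.u st.v + (1 - 1/1000000000000000) * P ≤ s st.u) {lam : ℝ}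
    (hlam : lam ≤ s w + gq) : lam ≤ s st.u + (st.Q - (st.Ac + st.As) / 1000000000000000) := by
  have hc := ha.hc
  have ht0 := hc.ht0
  have hw := ha.hw
  obtain ⟨h1, h2, h3, h4, h5, h6, h7, h8, h9, h10⟩ :=
    reach_facts hc ha.htgt ha.hΘ hct (by omega : ts ≤ t+1) h
  obtain ⟨b1, b2, b3⟩ := ha.hb c hct (t+1) (by omega) st h
  obtain ⟨s', hs', e⟩ := ext_up hc.hg (t := t+1) (t' := t0) (by omega) ht0 hs
  have a1 := h10 s' hs'
  have a2 := ha.hwS s' hs'
  rw [e st.v h2] at a1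
  rw [e w (by omega)] at a2
  rw [abs_le] at a1 a2
  have hst := ha.hstop
  linarith [a1.1, a1.2, a2.1, a2.2]

theorem asm_cs (ha : Asm n g t0 ts σ tgt Θ rho w gq K H H' M)
    (h4 : ∃ r gam : ℝ, 0 ≤ r ∧
      (∀ s ∈ g.S ts, ∀ lam, Sat s lam (ActR g ts w r) →
        Sat s (lam + gam) (Needs g σ tgt Θ t0 rho w gq ts)) ∧
      ((r / 300 - rho / 600 ≤ gam) ∨
        (w = ts ∧ 0 < ts ∧ ¬ g.isA ts ∧ (∀ l < ts, 4 * r ≤ g.D ts l) ∧ -(rho / 600) ≤ gam)) ∧
      (ts = t0 → w = t0 ∧ (r = 0 ∨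
        (0 < ts ∧ ¬ g.isA ts ∧ (∀ l < ts, 4 * r ≤ g.D ts l) ∧ -(rho / 600) ≤ gam)))) :
    IsCS g t0 rho ts w (Needs g σ tgt Θ t0 rho w gq) := by
  have hc := ha.hc
  have hg := hc.hg
  have ht0 := hc.ht0
  have htsle := hc.hts
  have hw := ha.hw
  have hrho := ha.hrho
  refine ⟨hrho, htsle, hw, ?_, ?_, ?_, ?_, ?_, ?_, ?_, ha.h5, h4⟩
  · -- R0
    intro c hct
    refine ⟨max (g.D c t0 - rho) 0, ?_, Or.inr ⟨c, hct, _, Run.refl, rfl, ?_⟩⟩
    · unfold Psi
      rw [hg.D_symm c (by omega) t0 ht0]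
      have h1 := D_nonneg hg (i := t0) (j := c) ht0 (by omega)
      rw [bb]
      apply max_le
      · refine le_trans ?_ (le_max_right _ _)
        linarith
      · refine le_trans ?_ (le_max_left _ _)
        linarith
    · show max (g.D c t0 - rho) 0 = max (g.D c t0 - rho) 0 - (0 + 0) / 1000000000000000
      ring
  · -- RA
    intro t ht htt hA s hs lam hsat u q hR
    have hstat : lam ≤ s w + gq := hsat w gq (Or.inl ⟨rfl, rfl⟩)
    rcases hR with ⟨rfl, rfl⟩ | ⟨c, hct, st, hr, rfl, rfl⟩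
    · exact hstat
    obtain ⟨h1, h2, h3, h4, h5, h6, h7, h8, h9, h10⟩ :=
      reach_facts hc ha.htgt ha.hΘ hct (by omega : ts ≤ t+1) hr
    have hneed : ∀ st', Run g σ tgt Θ t0 (ini g t0 rho c) t st' →
        lam ≤ s st'.u + (st'.Q - (st'.Ac + st'.As) / 1000000000000000) := fun st' hr' =>
      hsat st'.u _ (Or.inr ⟨c, hct, st', hr', rfl, rfl⟩)
    have hSlip := hg.S_lip (t+1) (by omega) s hs
    obtain ⟨u, v, Q, As, Ac⟩ := st
    simp only at h1 h2 h3 h4 h5 h6 h7 h8 h9 h10 ⊢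
    rcases Nat.lt_or_ge t u with hu | hu <;> rcases Nat.lt_or_ge t v with hv | hv
    · obtain rfl : u = t + 1 := by omega
      obtain rfl : v = t + 1 := by omega
      obtain ⟨l, hl, hD⟩ := hg.A_eq t (by omega) hA (tgt t) (ha.htgt t ht htt)
      have := hneed _ (hr.step (Step.bA l Q As Ac hA hl hD))
      simp only at this
      have hf := A_flat' hg (by omega) hA hs hl
      linarith [hf.1, hf.2]
    · obtain rfl : u = t + 1 := by omega
      obtain ⟨l, hl, hD⟩ := hg.A_eq t (by omega) hA v hv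
      have hf := A_flat' hg (by omega) hA hs hl
      rcases lt_or_ge (As + g.P (t+1) l) Θ with hlt | hge
      · have := hneed _ (hr.step (Step.uA v l Q As Ac hA hv hl hD hlt))
        simp only at this
        linarith [hf.1, hf.2]
      · refine stop_ok ha hct ht htt hr hs hge ?_ hstat
        show s v - g.D (t+1) v + (1 - 1/1000000000000000) * g.P (t+1) l ≤ s (t+1)
        have := hSlip v (by omega) l (by omega)
        have h11 := hg.D_symm v (by omega) l (by omega)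
        linarith [hf.1, hf.2]
    · obtain rfl : v = t + 1 := by omega
      obtain ⟨l, hl, hD⟩ := hg.A_eq t (by omega) hA u hu
      have hf := A_flat' hg (by omega) hA hs hl
      rcases lt_or_ge (As + g.P (t+1) l) Θ with hlt | hge
      · have := hneed _ (hr.step (Step.vA u l Q As Ac hA hu hl hD hlt))
        simp only at this
        have hPn := P_nonneg hg (by omega) hA hl
        linarith [hf.1, hf.2]
      · refine stop_ok ha hct ht htt hr hs hge ?_ hstat
        show s (t+1) - g.D u (t+1) + (1 - 1/1000000000000000) * g.P (t+1) l ≤ s u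
        have := hSlip l (by omega) u (by omega)
        have h11 := hg.D_symm u (by omega) (t+1) (by omega)
        linarith [hf.1, hf.2]
    · exact hneed _ (hr.step (Step.stay u v Q As Ac hu hv))
  · -- RB1
    intro t ht htt hB s hs lam hsat u hut q hR
    rcases hR with ⟨rfl, rfl⟩ | ⟨c, hct, st, hr, rfl, rfl⟩
    · exact hsat u q (Or.inl ⟨rfl, rfl⟩)
    obtain ⟨h1, h2, -⟩ := reach_facts hc ha.htgt ha.hΘ hct (by omega : ts ≤ t+1) hr
    obtain ⟨u, v, Q, As, Ac⟩ := st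
    simp only at h1 h2 hut ⊢
    rcases Nat.lt_or_ge t v with hv | hv
    · obtain rfl : v = t + 1 := by omega
      obtain ⟨l, hl, hσ⟩ := hc.mx t ht htt hB
      exact hsat u _ (Or.inr ⟨c, hct, _, hr.step (Step.vB u l Q As Ac hB hut hl hσ), rfl, rfl⟩)
    · exact hsat u _ (Or.inr ⟨c, hct, _, hr.step (Step.stay u v Q As Ac hut hv), rfl, rfl⟩)
  · -- RB2
    intro t ht htt hB s hs lam hsat q hR k hk
    rcases hR with ⟨h, -⟩ | ⟨c, hct, st, hr, hu, rfl⟩
    · omega
    obtain ⟨h1, h2, -⟩ := reach_facts hc ha.htgt ha.hΘ hct (by omega : ts ≤ t+1) hr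
    obtain ⟨u, v, Q, As, Ac⟩ := st
    simp only at h1 h2 hu ⊢
    subst hu
    rcases Nat.lt_or_ge t v with hv | hv
    · obtain rfl : v = t + 1 := by omega
      obtain ⟨l, hl, hσ⟩ := hc.mx t ht htt hB
      have := hsat k _ (Or.inr ⟨c, hct, _, hr.step (Step.bB k l Q As Ac hB hk hl hσ), rfl, rfl⟩)
      simp only at this
      linarith
    · have := hsat k _ (Or.inr ⟨c, hct, _, hr.step (Step.uB v k Q As Ac hB hv hk), rfl, rfl⟩)
      simp only at this
      linarith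
  · -- Rle
    intro t ht htt u q hR
    rcases hR with ⟨rfl, rfl⟩ | ⟨c, hct, st, hr, rfl, rfl⟩
    · omega
    · exact (reach_facts hc ha.htgt ha.hΘ hct ht hr).1
  · -- Rlow
    intro t ht htt u q hR
    rcases hR with ⟨rfl, rfl⟩ | ⟨c, hct, st, hr, rfl, rfl⟩
    · exact ha.hgq
    · obtain ⟨h1, h2, h3, h4, h5, h6, -⟩ := reach_facts hc ha.htgt ha.hΘ hct ht hr
      obtain ⟨b1, -⟩ := ha.hb c hct t ht st hr
      have := ha.hlow
      linarith
  · -- Rfar
    intro t ht htt u q hR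
    rcases hR with ⟨rfl, rfl⟩ | ⟨c, hct, st, hr, rfl, rfl⟩
    · have := ha.hgq
      rw [hg.D_self u (by omega)]
      linarith
    · obtain ⟨h1, h2, h3, h4, h5, h6, h7, -⟩ := reach_facts hc ha.htgt ha.hΘ hct ht hr
      obtain ⟨b1, b2, b3⟩ := ha.hb c hct t ht st hr
      have := ha.hfar
      have h8 := hg.D_tri w (by omega) st.v (by omega) st.u (by omega)
      have h9 := hg.D_symm st.v (by omega) st.u (by omega)
      linarith

/-- the canonical chain -/
lemma canon (hc : Ctx n g t0 ts σ) (htgt : ∀ t, ts ≤ t → t < t0 → tgt t ≤ t) (Θ rho : ℝ) :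
    ∀ k t, ts ≤ t → t + k = t0 →
      ∃ st, Run g σ tgt Θ t0 (ini g t0 rho t0) t st ∧ st.u = st.v ∧ st.As = 0 ∧ st.v ≤ t := by
  intro k
  induction k with
  | zero =>
    intro t _ ht
    obtain rfl : t = t0 := by omega
    exact ⟨_, Run.refl, rfl, rfl, le_refl _⟩
  | succ k ih =>
    intro t hts ht
    obtain ⟨st, hr, h1, h2, h3⟩ := ih (t+1) (by omega) (by omega)
    obtain ⟨u, v, Q, As, Ac⟩ := st
    simp only at h1 h2 h3
    subst h1
    have ht0 := hc.ht0
    rcases Nat.lt_or_ge t u with hu | hu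
    · obtain rfl : u = t + 1 := by omega
      by_cases hA : g.isA (t+1)
      · obtain ⟨l, hl, hD⟩ := hc.hg.A_eq t (by omega) hA (tgt t) (htgt t hts (by omega))
        exact ⟨_, hr.step (Step.bA l Q As Ac hA hl hD), rfl, h2, hl⟩
      · obtain ⟨l, hl, hσ⟩ := hc.mx t hts (by omega) hA
        exact ⟨_, hr.step (Step.bB l l Q As Ac hA hl hl hσ), rfl, h2, hl⟩
    · exact ⟨_, hr.step (Step.stay u u Q As Ac hu hu), rfl, h2, hu⟩

/-- a single walk from `x` to `x'` with A-length `A` -/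
structure Walk (n : ℕ) (g : Geo) (σ : ℕ → ℝ) (t x x' : ℕ) (A : ℝ) : Prop where
  A0 : 0 ≤ A
  up : σ x' ≤ σ x + A / 1000000000000000
  dist : g.D x x' ≤ (σ x - σ x') + (1 + 1/1000000000000000) * A
  fn : ∀ s ∈ g.S t, |s x - s x'| ≤ (σ x - σ x') + 2 * A / 1000000000000000

lemma Walk.refl (hg : Valid n g) {t x : ℕ} (hx : x ≤ n) : Walk n g σ t x x 0 :=
  ⟨le_refl _, by simp, by rw [hg.D_self x hx]; simp, fun s _ => by simp⟩

lemma Walk.stepA (hc : Ctx n g t0 ts σ) {t l x' : ℕ} {A : ℝ} (ht : t < t0) (hA : g.isA (t+1))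
    (hl : l ≤ t) (hx' : x' ≤ t) (h : Walk n g σ t l x' A) :
    Walk n g σ (t+1) (t+1) x' (A + g.P (t+1) l) := by
  have hg := hc.hg
  have ht0 := hc.ht0
  have hP := P_nonneg hg (by omega) hA hl
  have hPD := P_ge hg (by omega) hA hl
  have h1 := A_flat' hg (by omega) hA (hc.memd (by omega : t+1 ≤ t0)) hl
  have h2 := hg.D_tri (t+1) (by omega) l (by omega) x' (by omega)
  have h3 := h.A0
  have h4 := h.up
  have h5 := h.dist
  refine ⟨by linarith, by linarith [h1.2], by linarith [h1.2], fun s hs => ?_⟩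
  have h6 := A_flat' hg (by omega) hA hs hl
  have h7 := h.fn s (hg.S_res t (by omega) s hs)
  rw [abs_le] at h7 ⊢
  constructor <;> linarith [h1.2, h6.1, h6.2, h7.1, h7.2]

lemma Walk.stepB (hc : Ctx n g t0 ts σ) {t l x' : ℕ} {A : ℝ} (ht : t < t0)
    (hl : l ≤ t) (hx' : x' ≤ t) (hσ : σ (t+1) = σ l + g.D (t+1) l) (h : Walk n g σ t l x' A) :
    Walk n g σ (t+1) (t+1) x' A := by
  have hg := hc.hg
  have ht0 := hc.ht0
  have h2 := hg.D_tri (t+1) (by omega) l (by omega) x' (by omega)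
  have h3 := h.A0
  have h4 := h.up
  have h5 := h.dist
  have h0 := D_nonneg hg (i := t+1) (j := l) (by omega) (by omega)
  refine ⟨h3, by linarith, by linarith, fun s hs => ?_⟩
  have h7 := h.fn s (hg.S_res t (by omega) s hs)
  have h8 := hg.S_lip (t+1) (by omega) s hs (t+1) (le_refl _) l (by omega)
  have h9 := hg.S_lip (t+1) (by omega) s hs l (by omega) (t+1) (le_refl _)
  have h10 := hg.D_symm l (by omega) (t+1) (by omega)
  rw [abs_le] at h7 ⊢
  constructor <;> linarith [h7.1, h7.2]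

lemma Walk.mono (hg : Valid n g) {t x x' : ℕ} {A : ℝ} (ht : t < n) (h : Walk n g σ t x x' A) :
    Walk n g σ (t+1) x x' A :=
  ⟨h.A0, h.up, h.dist, fun s hs => h.fn s (hg.S_res t ht s hs)⟩

/-- two walkers moving towards each other -/
lemma merge (hc : Ctx n g t0 ts σ) :
    ∀ t, ts ≤ t → t ≤ t0 → ∀ x y, x ≤ t → y ≤ t → ∃ x' y' Ax Ay,
      Walk n g σ t x x' Ax ∧ Walk n g σ t y y' Ay ∧ x' ≤ t ∧ y' ≤ t ∧
      g.D x' y' + (1 - 1/1000000000000000) * (Ax + Ay) ≤ g.D x y + (σ x - σ x') + (σ y - σ y') ∧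
      (x' = y' ∨ (x' ≤ ts ∧ y' ≤ ts)) := by
  intro t hts
  have hg := hc.hg
  have ht0 := hc.ht0
  induction t, hts using Nat.le_induction with
  | base =>
    intro h0 x y hx hy
    exact ⟨x, y, 0, 0, Walk.refl hg (by omega), Walk.refl hg (by omega), hx, hy, by simp,
      Or.inr ⟨hx, hy⟩⟩
  | succ t hts ih =>
    intro h0 x y hx hy
    by_cases hxy : x = y
    · subst hxy
      exact ⟨x, x, 0, 0, Walk.refl hg (by omega), Walk.refl hg (by omega), hx, hy, by simp,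
        Or.inl rfl⟩
    have hσ : σ ∈ g.S (t+1) := hc.memd h0
    rcases Nat.lt_or_ge t x with h1 | h1
    · obtain rfl : x = t + 1 := by omega
      have hy' : y ≤ t := by omega
      by_cases hA : g.isA (t+1)
      · obtain ⟨l, hl, hD⟩ := hg.A_eq t (by omega) hA y hy'
        obtain ⟨x', y', Ax, Ay, w1, w2, hx', hy'', hd, hor⟩ := ih (by omega) l y hl hy'
        have hf := A_flat' hg (by omega) hA hσ hl
        exact ⟨x', y', Ax + g.P (t+1) l, Ay, w1.stepA hc (by omega) hA hl hx',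
          w2.mono hg (by omega), by omega, by omega, by linarith [hf.1, hf.2], hor⟩
      · obtain ⟨l, hl, hs⟩ := hc.mx t hts (by omega) hA
        obtain ⟨x', y', Ax, Ay, w1, w2, hx', hy'', hd, hor⟩ := ih (by omega) l y hl hy'
        have h2 := hg.D_tri l (by omega) (t+1) (by omega) y (by omega)
        have h3 := hg.D_symm l (by omega) (t+1) (by omega)
        exact ⟨x', y', Ax, Ay, w1.stepB hc (by omega) hl hx' hs,
          w2.mono hg (by omega), by omega, by omega, by linarith, hor⟩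
    · rcases Nat.lt_or_ge t y with h2 | h2
      · obtain rfl : y = t + 1 := by omega
        have hsy := hg.D_symm x (by omega) (t+1) (by omega)
        by_cases hA : g.isA (t+1)
        · obtain ⟨l, hl, hD⟩ := hg.A_eq t (by omega) hA x h1
          obtain ⟨x', y', Ax, Ay, w1, w2, hx', hy'', hd, hor⟩ := ih (by omega) x l h1 hl
          have hf := A_flat' hg (by omega) hA hσ hl
          have h4 := hg.D_symm x (by omega) l (by omega)
          exact ⟨x', y', Ax, Ay + g.P (t+1) l, w1.mono hg (by omega),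
            w2.stepA hc (by omega) hA hl hy'', by omega, by omega, by linarith [hf.1, hf.2], hor⟩
        · obtain ⟨l, hl, hs⟩ := hc.mx t hts (by omega) hA
          obtain ⟨x', y', Ax, Ay, w1, w2, hx', hy'', hd, hor⟩ := ih (by omega) x l h1 hl
          have h3 := hg.D_tri x (by omega) (t+1) (by omega) l (by omega)
          exact ⟨x', y', Ax, Ay, w1.mono hg (by omega), w2.stepB hc (by omega) hl hy'' hs,
            by omega, by omega, by linarith, hor⟩
      · obtain ⟨x', y', Ax, Ay, w1, w2, hx', hy'', hd, hor⟩ := ih (by omega) x y h1 h2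
        exact ⟨x', y', Ax, Ay, w1.mono hg (by omega), w2.mono hg (by omega),
          by omega, by omega, hd, hor⟩

end

end P124H219
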