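import Vale.Agent.P124.H219.Geo2

/-!
P124 (helper219), geometric theorem T4, part 3: CASE G and CASE I.
-/

namespace P124H219

open P124H186


lemma Psi_zero {r : ℝ} (hr : 0 ≤ r) : Psi r 0 = 0 := by
  unfold Psi
  rw [bb]
  apply le_antisymm
  · apply max_le
    · simp
    · nlinarith
  · refine le_trans ?_ (le_max_left _ _)
    simp

lemma Psi_le {r d x : ℝ} (h1 : d / 1000000000000000 ≤ x) (h2 : d - (1 - 1/1000000000000000) * r ≤ x) : Psi r d ≤ x := by
  unfold Psi
  rw [bb]
  exact max_le h1 h2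

section

variable {n : ℕ} {g : Geo} {t0 ts : ℕ} {σ : ℕ → ℝ} {Θ rho : ℝ}

/-- numerical bounds for a constant target -/
lemma bnd (hc : Ctx n g t0 ts σ) (hrho : 0 < rho) {p : ℕ} (hp : p ≤ ts)
    (hd : g.D t0 p ≤ 100000000 * rho) (hΘ : 0 < Θ) (hΘ2 : Θ ≤ 500000000 * rho)
    {c : ℕ} (hct : c ≤ t0) {t : ℕ} (ht : ts ≤ t) {st : St}
    (h : Run g σ (fun _ => p) Θ t0 (ini g t0 rho c) t st) :
    st.Ac ≤ 800000000 * rho ∧ σ t0 - σ st.v ≤ (σ t0 - σ p) + rho / 1000000 ∧
    g.D t0 st.v ≤ 2000000000 * rho ∧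
    (∀ s ∈ g.S t0, |s t0 - s st.v| ≤ (σ t0 - σ p) + rho / 100000) ∧
    g.D st.v p + (1 - 1/1000000000000000) * st.Ac
      ≤ g.D t0 p + (σ t0 - σ st.v) + (1 + 1/1000000000000000) * st.As := by
  have htgt : ∀ t, ts ≤ t → t < t0 → (fun _ : ℕ => p) t ≤ t := fun t h1 _ => hp.trans h1
  obtain ⟨h1, h2, h3, h4, h5, h6, h7, h8, h9, h10⟩ := reach_facts hc htgt hΘ hct ht h
  have i3 := Run.inv3 hc (p := p) (tl := ts) (le_refl _) hp (fun _ _ _ => rfl) (le_refl _) h ht
  unfold Inv3 at i3
  have e2 : (ini g t0 rho c).v = t0 := rfl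
  have e4 : (ini g t0 rho c).As = 0 := rfl
  have e5 : (ini g t0 rho c).Ac = 0 := rfl
  rw [e2, e4, e5] at i3
  have hg := hc.hg
  have ht0 := hc.ht0
  have htl := h.le
  have fl := hc.floor hp st.v (by omega)
  have sy := hg.D_symm p (by omega) st.v (by omega)
  have n1 := D_nonneg hg (i := st.v) (j := p) (by omega) (by omega)
  have l1 := hc.lip (i := t0) (j := p) (le_refl _) (by omega)
  have a8 := h8 t0 ht0
  rw [hg.D_self t0 ht0] at a8
  have b1 : st.Ac ≤ 800000000 * rho := by linarith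
  have b2 : g.D st.v p ≤ 800000000 * rho := by linarith
  have b3 : σ t0 - σ st.v ≤ (σ t0 - σ p) + rho / 1000000 := by linarith
  refine ⟨b1, b3, by linarith, fun s hs => ?_, by linarith⟩
  have := h10 s hs
  linarith

theorem caseG (hc : Ctx n g t0 ts σ) (hrho : 0 < rho) {p : ℕ} (hp : p ≤ ts)
    (hnear : ∀ k ≤ ts, g.D t0 p ≤ g.D t0 k) (hd : g.D t0 p ≤ 100000000 * rho)
    (hh : 12/10 * rho ≤ σ t0 - σ p) : ∃ ts w R, IsCS g t0 rho ts w R := by
  have hg := hc.hg
  have ht0 := hc.ht0
  have htsle := hc.hts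
  have l1 := hc.lip (i := t0) (j := p) (le_refl _) (by omega)
  obtain ⟨h, hdef⟩ : ∃ h, h = σ t0 - σ p := ⟨_, rfl⟩
  rw [← hdef] at hh l1
  have htgt : ∀ t, ts ≤ t → t < t0 → (fun _ : ℕ => p) t ≤ t := fun t h1 _ => hp.trans h1
  have hΘ : 0 < 5 * h := by linarith
  have hΘ2 : 5 * h ≤ 500000000 * rho := by linarith
  obtain ⟨sw, hrw, hw1, hw2, hw3⟩ := canon hc htgt (5*h) rho (t0 - ts) ts (le_refl _) (by omega)
  obtain ⟨c1, c2, c3, c4, c5⟩ := bnd hc hrho hp hd hΘ hΘ2 (le_refl _) (le_refl _) hrw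
  rw [hw2] at c5
  obtain ⟨d1, d2, d3, d4, d5, d6, d7, d8, d9, d10⟩ :=
    reach_facts hc htgt hΘ (le_refl _) (le_refl _) hrw
  have d8' := d8 t0 ht0
  rw [hg.D_self t0 ht0, hw2] at d8'
  have nw := hnear sw.v hw3
  have hDwp : g.D sw.v p ≤ 2 * h + rho / 10000 := by linarith
  have nonneg1 := D_nonneg hg (i := sw.v) (j := p) (by omega) (by omega)
  refine ⟨ts, sw.v, Needs g σ (fun _ => p) (5*h) t0 rho sw.v (h - rho - rho/1000), ?_⟩
  have ha : Asm n g t0 ts σ (fun _ => p) (5*h) rho sw.v (h - rho - rho/1000)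
      (800000000 * rho) (h + rho / 1000000) (h + rho / 100000) (4000000000 * rho) := by
    refine ⟨hc, hrho, hw3, htgt, hΘ, ?_, ?_, by linarith, by linarith, by linarith, by linarith,
      by linarith⟩
    · intro c hct t ht st hr
      obtain ⟨b1, b2, b3, b4, b5⟩ := bnd hc hrho hp hd hΘ hΘ2 hct ht hr
      have htl := hr.le
      have hv := (reach_facts hc htgt hΘ hct ht hr).2.1
      refine ⟨b1, by linarith, ?_⟩
      have := hg.D_tri sw.v (by omega) t0 (by omega) st.v (by omega)
      have := hg.D_symm sw.v (by omega) t0 (by omega)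
      linarith
    · intro s hs
      have := c4 s hs
      linarith
  refine asm_cs ha ⟨40 * h, h - rho - rho/1000, by linarith, ?_, Or.inl (by linarith), ?_⟩
  · intro s hs lam hsat u q hR
    have hw0 : lam ≤ s sw.v := by
      have := hsat sw.v _ ⟨hw3, rfl⟩
      rw [hg.D_self sw.v (by omega), Psi_zero (by linarith)] at this
      linarith
    rcases hR with ⟨rfl, rfl⟩ | ⟨c, hct, st, hr, rfl, rfl⟩
    · linarith
    · obtain ⟨b1, b2, b3, b4, b5⟩ := bnd hc hrho hp hd hΘ hΘ2 hct (le_refl _) hr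
      obtain ⟨f1, f2, f3, f4, f5, f6, f7, f8, f9, f10⟩ :=
        reach_facts hc htgt hΘ hct (le_refl _) hr
      have f8' := f8 t0 ht0
      rw [hg.D_self t0 ht0] at f8'
      have nv := hnear st.v f2
      have hDvp : g.D st.v p ≤ 12 * h + rho / 1000 := by linarith
      have hu := hsat st.u _ ⟨f1, rfl⟩
      have t1 := hg.D_tri st.u (by omega) sw.v (by omega) p (by omega)
      have t2 := hg.D_symm st.u (by omega) sw.v (by omega)
      have t3 := hg.D_tri sw.v (by omega) st.v (by omega) st.u (by omega)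
      have t4 := hg.D_symm st.v (by omega) st.u (by omega)
      have t5 := hg.D_tri sw.v (by omega) p (by omega) st.v (by omega)
      have t6 := hg.D_symm st.v (by omega) p (by omega)
      have fl := hc.flat st.u f1 p hp
      have hPsi : Psi (40*h) (g.D sw.v st.u) ≤
          st.Q - (st.Ac + st.As) / 1000000000000000 - (h - rho - rho/1000) := by
        rcases le_total (g.D sw.v st.u) (40*h) with h1 | h1
        · have e1 : g.D sw.v st.u / 1000000000000000 ≤ st.Q - (st.Ac + st.As) / 1000000000000000 - (h - rho - rho/1000) := by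
            linarith
          refine Psi_le e1 ?_
          linarith
        · have e1 : g.D sw.v st.u - (1 - 1/1000000000000000) * (40*h) ≤
              st.Q - (st.Ac + st.As) / 1000000000000000 - (h - rho - rho/1000) := by
            linarith
          refine Psi_le ?_ e1
          linarith
      linarith
  · intro he
    exfalso
    have h1 := hnear t0 (by omega)
    rw [hg.D_self t0 ht0] at h1
    linarith

theorem caseI (hc : Ctx n g t0 ts σ) (hrho : 0 < rho)
    (hd : g.D t0 ts ≤ 100000000 * rho)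
    (hfar : ∀ k < ts, g.D t0 ts + 20 * rho ≤ g.D t0 k)
    (hh : σ t0 - σ ts < 12/10 * rho) : ∃ ts w R, IsCS g t0 rho ts w R := by
  have hg := hc.hg
  have ht0 := hc.ht0
  have htsle := hc.hts
  have htgt : ∀ t, ts ≤ t → t < t0 → (fun _ : ℕ => ts) t ≤ t := fun t h1 _ => h1
  have hΘ : 0 < 6 * rho := by linarith
  have hΘ2 : 6 * rho ≤ 500000000 * rho := by linarith
  -- all end points are `ts`
  have hend : ∀ c ≤ t0, ∀ st, Run g σ (fun _ => ts) (6*rho) t0 (ini g t0 rho c) ts st →
      st.v = ts := by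
    intro c hct st hr
    obtain ⟨b1, b2, b3, b4, b5⟩ := bnd hc hrho (le_refl ts) hd hΘ hΘ2 hct (le_refl _) hr
    obtain ⟨f1, f2, f3, f4, f5, f6, f7, f8, f9, f10⟩ := reach_facts hc htgt hΘ hct (le_refl _) hr
    by_contra hne
    have hlt : st.v < ts := by omega
    have f8' := f8 t0 ht0
    rw [hg.D_self t0 ht0] at f8'
    have h1 := hfar st.v hlt
    have h2 := D_nonneg hg (i := st.v) (j := ts) (by omega) (by omega)
    linarith
  obtain ⟨sw, hrw, hw1, hw2, hw3⟩ := canon hc htgt (6*rho) rho (t0 - ts) ts (le_refl _) (by omega)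
  obtain ⟨c1, c2, c3, c4, c5⟩ := bnd hc hrho (le_refl ts) hd hΘ hΘ2 (le_refl _) (le_refl _) hrw
  have hwe := hend t0 (le_refl _) sw hrw
  rw [hwe] at c3 c4
  refine ⟨ts, ts, Needs g σ (fun _ => ts) (6*rho) t0 rho ts 0, ?_⟩
  have ha : Asm n g t0 ts σ (fun _ => ts) (6*rho) rho ts 0
      (800000000 * rho) (12/10 * rho + rho / 1000000) (12/10 * rho + rho / 100000)
      (4000000000 * rho) := by
    refine ⟨hc, hrho, le_refl _, htgt, hΘ, ?_, ?_, by linarith, by linarith, by linarith,
      by linarith, by linarith⟩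
    · intro c hct t ht st hr
      obtain ⟨b1, b2, b3, b4, b5⟩ := bnd hc hrho (le_refl ts) hd hΘ hΘ2 hct ht hr
      have htl := hr.le
      have hv := (reach_facts hc htgt hΘ hct ht hr).2.1
      refine ⟨b1, by linarith, ?_⟩
      have := hg.D_tri ts (by omega) t0 (by omega) st.v (by omega)
      have := hg.D_symm ts (by omega) t0 (by omega)
      linarith
    · intro s hs
      have := c4 s hs
      linarith
  -- distance facts
  have hdist : ∀ k < ts, 20 * rho ≤ g.D ts k := by
    intro k hk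
    have h1 := hfar k hk
    have h2 := hg.D_tri t0 (by omega) ts (by omega) k (by omega)
    linarith
  by_cases hAB : 0 < ts ∧ ¬ g.isA ts
  · -- B-born founder
    refine asm_cs ha ⟨3 * rho, -(rho/1000), by linarith, ?_, Or.inr ⟨rfl, hAB.1, hAB.2,
      fun l hl => by linarith [hdist l hl], by linarith⟩, fun he => ⟨he, Or.inr ⟨hAB.1, hAB.2,
      fun l hl => by linarith [hdist l hl], by linarith⟩⟩⟩
    intro s hs lam hsat u q hR
    have hw0 : lam ≤ s ts := by
      have := hsat ts _ ⟨le_refl _, rfl⟩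
      rw [hg.D_self ts (by omega), Psi_zero (by linarith)] at this
      linarith
    rcases hR with ⟨rfl, rfl⟩ | ⟨c, hct, st, hr, rfl, rfl⟩
    · linarith
    · obtain ⟨b1, b2, b3, b4, b5⟩ := bnd hc hrho (le_refl ts) hd hΘ hΘ2 hct (le_refl _) hr
      obtain ⟨f1, f2, f3, f4, f5, f6, f7, f8, f9, f10⟩ := reach_facts hc htgt hΘ hct (le_refl _) hr
      have hv := hend c hct st hr
      rw [hv] at f7
      rcases Nat.lt_or_ge st.u ts with hu | hu
      · have h1 := hsat st.u _ ⟨f1, rfl⟩
        have h2 := hdist st.u hu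
        have h3 : Psi (3*rho) (g.D ts st.u) ≤ g.D ts st.u - (1 - 1/1000000000000000) * (3*rho) := by
          refine Psi_le ?_ (le_refl _)
          linarith
        have h4 := hg.D_symm st.u (by omega) ts (by omega)
        linarith
      · have he : st.u = ts := by omega
        rw [he]
        linarith
  · -- A-born or `ts = 0`
    refine asm_cs ha ⟨0, -(rho/1000), le_refl _, ?_, Or.inl (by linarith),
      fun he => ⟨he, Or.inl rfl⟩⟩
    intro s hs lam hsat u q hR
    have hw0 : lam ≤ s ts := by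
      have := hsat ts _ ⟨le_refl _, rfl⟩
      rw [hg.D_self ts (by omega), Psi_zero (le_refl _)] at this
      linarith
    rcases hR with ⟨rfl, rfl⟩ | ⟨c, hct, st, hr, rfl, rfl⟩
    · linarith
    · obtain ⟨b1, b2, b3, b4, b5⟩ := bnd hc hrho (le_refl ts) hd hΘ hΘ2 hct (le_refl _) hr
      obtain ⟨f1, f2, f3, f4, f5, f6, f7, f8, f9, f10⟩ := reach_facts hc htgt hΘ hct (le_refl _) hr
      have hv := hend c hct st hr
      rw [hv] at f7
      rcases Nat.lt_or_ge st.u ts with hu | hu
      · have hpos : 0 < ts := by omega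
        have hA : g.isA ts := by
          by_contra hA
          exact hAB ⟨hpos, hA⟩
        obtain ⟨t, rfl⟩ : ∃ t, ts = t + 1 := ⟨ts - 1, by omega⟩
        obtain ⟨l, hl, hD⟩ := hg.A_eq t (by omega) hA st.u (by omega)
        have h1 := A_flat' hg (by omega) hA hs hl
        have h2 := P_ge hg (by omega) hA hl
        have h3 := hdist l (by omega)
        have h4 := hg.S_lip (t+1) (by omega) s hs l (by omega) st.u (by omega)
        have h5 := hg.D_symm st.u (by omega) (t+1) (by omega)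
        linarith [h1.1, h1.2]
      · have he : st.u = ts := by omega
        rw [he]
        linarith

end

end P124H219
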